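import Vale.Agent.P079.Final

/-- Every real reflexive Banach space has the fixed point property for nonexpansive maps on
nonempty closed bounded convex sets. -/
theorem Vale.Agent.Results.P079.ReflexiveFPP.result
    {X : Type*} [NormedAddCommGroup X] [NormedSpace ℝ X] [CompleteSpace X]
    (hX : Function.Surjective (NormedSpace.inclusionInDoubleDual ℝ X))
    (C : Set X) (hne : C.Nonempty) (hcl : IsClosed C) (hb : Bornology.IsBounded C)
    (hconv : Convex ℝ C) (T : C → C)
    (hT : ∀ a b : C, ‖(T a : X) - (T b : X)‖ ≤ ‖(a : X) - (b : X)‖) :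
    ∃ a : C, T a = a := by
  classical
  have hE : Vale.Agent.P079.Refl X := fun L => by
    obtain ⟨x, rfl⟩ := hX L
    exact ⟨x, fun f => rfl⟩
  obtain ⟨R, hR⟩ := hb.exists_norm_le
  let S : X → X := fun a => if h : a ∈ C then (T ⟨a, h⟩ : X) else a
  have hS : ∀ a (h : a ∈ C), S a = T ⟨a, h⟩ := fun a h => dif_pos h
  obtain ⟨a, ha, hfix⟩ := Vale.Agent.P079.refl_fpp hE S C
    ⟨hne, hcl, hconv, fun a ha => by rw [hS a ha]; exact (T ⟨a, ha⟩).2⟩ R hR
    (fun a ha b hb => by rw [hS a ha, hS b hb]; exact hT _ _)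
  exact ⟨⟨a, ha⟩, Subtype.ext ((hS a ha).symm.trans hfix)⟩
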